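import Vale.Agent.P078b.Top

open Vale.Agent.P078

theorem Vale.Agent.Results.P078.Full.result
    {H : Type*} [NormedAddCommGroup H] [InnerProductSpace ℂ H] [CompleteSpace H]
    (M : VonNeumannAlgebra H) (A : StarSubalgebra ℂ (H →L[ℂ] H)) (hA : IsMASA M A)
    (ε : ℝ) (h0 : 0 < ε) (h1 : ε < 1) :
    ∃ n : ℕ, pavingNumber M A ε = (n : ℕ∞) ∧ (n : ℝ) ≤ 10 ^ 11 / ε ^ 2 := by
  obtain ⟨r, hr, hr'⟩ := pavingNumber_le_const hA h0 h1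
  obtain ⟨n, hn⟩ := ENat.ne_top_iff_exists.1 (ne_top_of_le_ne_top (ENat.coe_ne_top r) hr)
  refine ⟨n, hn.symm, le_trans ?_ hr'⟩
  rw [← hn] at hr
  exact_mod_cast hr
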