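import Vale.Agent.P078.Lower

open Vale.Agent.P078

theorem Vale.Agent.Results.P078.NonExpected.result
    {H : Type*} [NormedAddCommGroup H] [InnerProductSpace ℂ H] [CompleteSpace H]
    (M : VonNeumannAlgebra H) (A : StarSubalgebra ℂ (H →L[ℂ] H)) (hA : IsMASA M A) :
    ((∀ p ∈ A, IsStarProjection p → p ≠ 0 → ¬ ∃ E, IsNormalCondExp M A p E) →
      ∀ ε : ℝ, 0 < ε →
        pavingNumber M A ε ≤ ((⌊1 / ε⌋₊ + 1 : ℕ) : ℕ∞) ∧
        (Nontrivial H → ((⌈1 / ε⌉₊ : ℕ) : ℕ∞) ≤ pavingNumber M A ε)) ∧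
    (∃ (U : Submodule ℂ H) (_ : CompleteSpace U) (N : VonNeumannAlgebra U)
      (B : StarSubalgebra ℂ (U →L[ℂ] U)), U.starProjection ∈ A ∧
      (∀ t, t ∈ N ↔ U.subtypeL ∘L t ∘L U.orthogonalProjectionOnto ∈ M) ∧
      (∀ t, t ∈ B ↔ U.subtypeL ∘L t ∘L U.orthogonalProjectionOnto ∈ A) ∧
      IsMASA N B ∧ (∃ E, IsNormalCondExp N B 1 E) ∧
      ∀ ε : ℝ, 0 < ε →
        pavingNumber M A ε ≤ pavingNumber N B ε + ((⌊1 / ε⌋₊ + 1 : ℕ) : ℕ∞)) := by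
  refine ⟨fun hno ε hε => ⟨pavingNumber_le (by omega) fun x hxM hx =>
    soPavable_of_no_expectation hA hno hxM hx (one_lt_mul_floor hε), fun _ => ?_⟩, reduction hA⟩
  refine le_iInf₂ fun r hr => ?_
  have h := one_le_of_soPavable hA hno hε hr.1 hr.2
  refine Nat.cast_le.mpr (Nat.ceil_le.mpr ?_)
  rw [div_le_iff₀ hε]
  linarith
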